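import Vale.Agent.H27.PF.Terms

/-!
# P345: Diophantine representations with polylogarithmically many auxiliary solutions

Every set with a single-fold exponential Diophantine representation (by Matiyasevich 1974: every
recursively enumerable set) has a polynomial Diophantine representation in which the number of
auxiliary solutions of height at most `N` is at most `C (log N + 1)^k`, uniformly in the parameter.
-/

open Vale.Agent.H27.PF

theorem Vale.Agent.Results.P345.PolylogFold.result
    {n : ℕ} (S : Set (Fin n → ℕ)) (hS : SingleFoldExp S) :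
    ∃ (m : ℕ) (P : MvPolynomial (Fin n ⊕ Fin m) ℤ) (C k : ℕ),
      (∀ a : Fin n → ℕ, a ∈ S ↔ (auxSolutions P a).Nonempty) ∧
      ∀ (a : Fin n → ℕ) (N : ℕ),
        {w ∈ auxSolutions P a | ∀ i, w i ≤ N}.ncard ≤ C * (Nat.log 2 N + 1) ^ k :=
  (pld_of_singleFoldExp hS).toPolynomial
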